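import Mathlib
import Vale.Agent.Lib.P181.Equivar

open Vale.Agent.Lib.P181

namespace Vale.Agent.Results.P181.A_stable

/-- Stable range of the Foulkes-Howe map.  `V = ℂ^(d+1)`, and `lam` is a weight of `Sym^a (Sym^b V)`
with `a * b - lam 0 ≤ b`.  The map is given by the defining formula on products of basis vectors,
it is injective on the weight space of weight `lam`, and the space of highest weight vectors of
weight `lam` in `Sym^a (Sym^b V)` has dimension at most that of `Sym^b (Sym^a V)`. -/
theorem result (a b d : ℕ) (lam : Fin (d + 1) → ℕ) (hlam : a * b ≤ lam 0 + b) :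
    (∀ T : Fin a → Fin b → Fin (d + 1), foulkes a b (d + 1) (rowProd T) = psiArr T) ∧
    (∀ P ∈ weightSpace a b (d + 1) lam, foulkes a b (d + 1) P = 0 → P = 0) ∧
    (∀ P ∈ weightSpace a b (d + 1) lam, foulkes a b (d + 1) P ∈ weightSpace b a (d + 1) lam) ∧
    (∀ P ∈ hwSpace a b (d + 1) lam, foulkes a b (d + 1) P ∈ hwSpace b a (d + 1) lam) ∧
    Module.finrank ℂ (hwSpace a b (d + 1) lam) ≤ Module.finrank ℂ (hwSpace b a (d + 1) lam) :=
  ⟨foulkes_rowProd, fun _ hP h0 => foulkes_injOn hlam hP h0, fun _ hP => foulkes_mem_weightSpace hP,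
    fun _ hP => foulkes_mem_hwSpace hP, finrank_hwSpace_le hlam⟩

end Vale.Agent.Results.P181.A_stable
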