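import Vale.Agent.Results.P181.A_cubic
import Vale.Agent.Results.P181.A_stable

namespace Vale.Agent.Results.P181.A00_master

open Vale.Agent.Lib.P181

/-- The statement of part 1. -/
def part1 : Prop :=
  ∀ (a b d : ℕ) (ha : 1 ≤ a),
    (∀ T : Fin a → Fin b → Fin (d + 1), foulkes a b (d + 1) (rowProd T) = psiArr T) ∧
      (a * (a - 1) ^ 2 ≤ b →
        (∀ P ∈ MvPolynomial.homogeneousSubmodule (Mon (d + 1) b) ℂ a,
          foulkes a b (d + 1) P = 0 → P = 0) ∧
        ∀ lam : Fin (d + 1) → ℕ,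
          Module.finrank ℂ (hwSpace a b (d + 1) lam) ≤ Module.finrank ℂ (hwSpace b a (d + 1) lam))

/-- The statement of part 2. -/
def part2 : Prop :=
  ∀ (a b d : ℕ) (lam : Fin (d + 1) → ℕ) (hlam : a * b ≤ lam 0 + b),
    (∀ T : Fin a → Fin b → Fin (d + 1), foulkes a b (d + 1) (rowProd T) = psiArr T) ∧
      (∀ P ∈ weightSpace a b (d + 1) lam, foulkes a b (d + 1) P = 0 → P = 0) ∧
      (∀ P ∈ weightSpace a b (d + 1) lam, foulkes a b (d + 1) P ∈ weightSpace b a (d + 1) lam) ∧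
      (∀ P ∈ hwSpace a b (d + 1) lam, foulkes a b (d + 1) P ∈ hwSpace b a (d + 1) lam) ∧
      Module.finrank ℂ (hwSpace a b (d + 1) lam) ≤ Module.finrank ℂ (hwSpace b a (d + 1) lam)

theorem result : part1 ∧ part2 :=
  ⟨@Vale.Agent.Results.P181.A_cubic.result, @Vale.Agent.Results.P181.A_stable.result⟩

end Vale.Agent.Results.P181.A00_master
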