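import Mathlib
import Vale.Agent.Lib.P181.Link

open Vale.Agent.Lib.P181

namespace Vale.Agent.Results.P181.A_bound

/-- A bound for the Foulkes-Howe map, polynomial in `a` and independent of `V = ℂ^(d+1)`.  The map
is given by the defining formula on products of basis vectors.  If `a ^ 5 ≤ b`, or more precisely
if `(a - 1) * e * (1 + (a - 1) * (a * e + 1)) ≤ b` where `e = min d (a - 1)`, then it is injective on
`Sym^a (Sym^b V)` (the homogeneous polynomials of degree `a` on the monomial basis of `Sym^b V`), and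
the space of highest weight vectors of any weight `lam` in `Sym^a (Sym^b V)` has dimension at most
that of `Sym^b (Sym^a V)`. -/
theorem result (a b d : ℕ) (ha : 1 ≤ a) :
    (∀ T : Fin a → Fin b → Fin (d + 1), foulkes a b (d + 1) (rowProd T) = psiArr T) ∧
    (a ^ 5 ≤ b ∨
        (a - 1) * min d (a - 1) * (1 + (a - 1) * (a * min d (a - 1) + 1)) ≤ b →
      (∀ P ∈ MvPolynomial.homogeneousSubmodule (Mon (d + 1) b) ℂ a,
        foulkes a b (d + 1) P = 0 → P = 0) ∧
      ∀ lam : Fin (d + 1) → ℕ,
        Module.finrank ℂ (hwSpace a b (d + 1) lam) ≤ Module.finrank ℂ (hwSpace b a (d + 1) lam)) := by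
  refine ⟨foulkes_rowProd, fun h => ?_⟩
  have hb : bbound a (min d (a - 1)) ≤ b := by
    rcases h with h | h
    · exact (bbound_mono a (min_le_right _ _)).trans ((bbound_le_pow a ha).trans h)
    · exact h
  have hinj : ∀ P : Pl (d + 1) b, P.IsHomogeneous a → foulkes a b (d + 1) P = 0 → P = 0 :=
    fun P hP h0 => foulkes_inj_bound ha hb P hP h0
  exact ⟨fun P hP h0 => hinj P ((MvPolynomial.mem_homogeneousSubmodule _ _).1 hP) h0,
    fun lam => finrank_hwSpace_le_of_inj hinj lam⟩

end Vale.Agent.Results.P181.A_bound
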