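import Mathlib
import Vale.Agent.Lib.P181.Blow

open Vale.Agent.Lib.P181

namespace Vale.Agent.Results.P181.A_cubic

/-- A cubic bound for the Foulkes-Howe map, independent of `V = ℂ^(d+1)`.  The map is given by the
defining formula on products of basis vectors.  If `a * (a - 1) ^ 2 ≤ b`, then it is injective on
`Sym^a (Sym^b V)` (the homogeneous polynomials of degree `a` on the monomial basis of `Sym^b V`), and
the space of highest weight vectors of any weight `lam` in `Sym^a (Sym^b V)` has dimension at most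
that of `Sym^b (Sym^a V)`. -/
theorem result (a b d : ℕ) (ha : 1 ≤ a) :
    (∀ T : Fin a → Fin b → Fin (d + 1), foulkes a b (d + 1) (rowProd T) = psiArr T) ∧
    (a * (a - 1) ^ 2 ≤ b →
      (∀ P ∈ MvPolynomial.homogeneousSubmodule (Mon (d + 1) b) ℂ a,
        foulkes a b (d + 1) P = 0 → P = 0) ∧
      ∀ lam : Fin (d + 1) → ℕ,
        Module.finrank ℂ (hwSpace a b (d + 1) lam) ≤ Module.finrank ℂ (hwSpace b a (d + 1) lam)) := by
  refine ⟨foulkes_rowProd, fun hb => ?_⟩
  have hinj : ∀ P : Pl (d + 1) b, P.IsHomogeneous a → foulkes a b (d + 1) P = 0 → P = 0 :=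
    fun P hP h0 => foulkes_inj_cubic ha hb P hP h0
  exact ⟨fun P hP h0 => hinj P ((MvPolynomial.mem_homogeneousSubmodule _ _).1 hP) h0,
    fun lam => finrank_hwSpace_le_of_inj hinj lam⟩

end Vale.Agent.Results.P181.A_cubic
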